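import Vale.Agent.P049.Main

/-!
# P049: explicit simple Ramanujan graphs in every degree, of order between `D²` and `4D²`
-/

namespace Vale.Agent.Results.P049.AllDegrees

open Vale.Agent.P049

open Classical in
/-- For every degree `D` and every prime `q > D` with `√q + 1 ≤ 2 √(D - 1)` the simple graph
`G D q` on the pairs `(x, y)` with `x ∈ {0, …, D}`, `y ∈ ℤ/q`, in which `(x, y)` and `(x', y')` are
adjacent when `x ≠ x'` and `y + y' = x x'`, has `(D + 1) q` vertices, is `D`-regular and is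
Ramanujan: every eigenvalue of the adjacency matrix on the orthogonal complement of the constants
is at most `2 √(D - 1)` in absolute value. Such primes exist for every `D ≥ 7`. -/
theorem result (D : ℕ) :
    (∀ (q : ℕ) [Fact q.Prime], D < q → √(q : ℝ) + 1 ≤ 2 * √((D : ℝ) - 1) →
      Fintype.card (Vert D q) = (D + 1) * q ∧ (∀ v, (G D q).degree v = D) ∧
      ∀ (μ : ℝ) (f : Vert D q → ℝ), f ≠ 0 → ∑ v, f v = 0 →
        ((G D q).adjMatrix ℝ).mulVec f = μ • f → |μ| ≤ 2 * √((D : ℝ) - 1)) ∧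
    (7 ≤ D → ∃ q : ℕ, q.Prime ∧ D < q ∧ √(q : ℝ) + 1 ≤ 2 * √((D : ℝ) - 1)) :=
  ⟨fun _ _ hq h => ⟨card_vert hq, degree_eq hq, fun _ f hf0 hf hμ =>
    (eig_le f hf0 hf hμ).trans h⟩, exists_prime⟩

end Vale.Agent.Results.P049.AllDegrees
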